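import Vale.Agent.P066.Defs
import Vale.Agent.P066.Main

open Vale.Agent.P066

theorem Vale.Agent.Results.P066.EPositive.result :
    ∀ (n : ℕ), 1 ≤ n → ∀ h : Fin n → Fin n, Monotone h → (∀ i, i ≤ h i) →
      (∃! c : n.Partition → Polynomial ℤ,
        chrom h = ∑ l : n.Partition, MvPowerSeries.C (c l) * epart l) ∧
      ∀ c : n.Partition → Polynomial ℤ,
        chrom h = ∑ l : n.Partition, MvPowerSeries.C (c l) * epart l →
          ∀ (l : n.Partition) (k : ℕ), 0 ≤ (c l).coeff k := by
  intro n hn h hm hi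
  obtain ⟨N, rfl⟩ : ∃ N, n = N + 1 := ⟨n - 1, by omega⟩
  obtain ⟨c, hc, he⟩ := exists_expansion h hm hi
  have huniq : ∀ c' : (N + 1).Partition → Polynomial ℤ,
      chrom h = ∑ l, MvPowerSeries.C (c' l) * epart l → c' = c := by
    intro c' hc'
    have h0 : c' - c = 0 := by
      apply epart_indep
      simp only [Pi.sub_apply, map_sub, sub_mul, Finset.sum_sub_distrib]
      rw [← hc', ← he, sub_self]
    exact sub_eq_zero.1 h0
  refine ⟨⟨c, he, huniq⟩, fun c' hc' l k => ?_⟩
  rw [huniq c' hc']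
  exact hc l k
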